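import Vale.Agent.P252.Main

open Vale.Agent.P252

/-- In every dimension `n ≥ 10` there is a smooth function on all of `ℝⁿ` with positive definite
Hessian that solves the affine maximal equation and is not a quadratic polynomial. -/
theorem Vale.Agent.Results.P252.Counterexample.result (n : ℕ) (hn : 10 ≤ n) :
    ∃ u : (Fin n → ℝ) → ℝ, ContDiff ℝ ((⊤ : ℕ∞) : WithTop ℕ∞) u ∧ (∀ x, (hess u x).PosDef) ∧
      AffineMaximal u ∧ ¬ IsQuadratic u :=
  exists_counterexample n hn
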